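import Mathlib
import Vale.Agent.Lib.P199.Defs
import Vale.Agent.Lib.P199.Main

namespace Vale.Agent.Results.P199.ElemAmenableGenerators

universe u v

/-- Let `D` be a division ring algebraic over a central subfield `k`. If a finite set `S` of
nonzero elements of `D` generates an elementary amenable subgroup of `Dˣ` (for instance a soluble
one), then the `k`-algebra generated by `S` is finite-dimensional. -/
theorem result {k : Type v} {D : Type u} [Field k] [DivisionRing D] [Algebra k D]
    [Algebra.IsAlgebraic k D] (S : Set Dˣ) (hS : S.Finite)
    (hG : Vale.Agent.Lib.P199.ElemAmenable (Subgroup.closure S)) :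
    Module.Finite k (Algebra.adjoin k (Units.val '' S)) :=
  Vale.Agent.Lib.P199.finite_adjoin_of_elemAmenable S hS hG

end Vale.Agent.Results.P199.ElemAmenableGenerators
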