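import Mathlib
import Vale.Agent.Lib.P199.Defs
import Vale.Agent.Lib.P199.Main

namespace Vale.Agent.Results.P199.ExtensionClosure

universe u v

/-- Let `D` be a division ring algebraic over a central subfield `k`, let `G` be a subgroup of `Dˣ`
and `φ : G → Q` a homomorphism to an elementary amenable group `Q`. If every finite subset of the
kernel of `φ` generates a finite-dimensional `k`-algebra, then so does every finite subset
of `G`. -/
theorem result {k : Type v} {D : Type u} [Field k] [DivisionRing D] [Algebra k D]
    [Algebra.IsAlgebraic k D] (G : Subgroup Dˣ) {Q : Type u} [Group Q]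
    (hQ : Vale.Agent.Lib.P199.ElemAmenable Q) (φ : G →* Q)
    (hker : ∀ T : Set Dˣ, T.Finite → T ⊆ (φ.ker.map G.subtype : Subgroup Dˣ) →
      Module.Finite k (Algebra.adjoin k (Units.val '' T))) :
    ∀ S : Set Dˣ, S.Finite → S ⊆ (G : Set Dˣ) →
      Module.Finite k (Algebra.adjoin k (Units.val '' S)) :=
  Vale.Agent.Lib.P199.extension_closure G hQ φ hker

end Vale.Agent.Results.P199.ExtensionClosure
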