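import Mathlib
import Vale.Agent.Results.P199.ElemAmenableGenerators
import Vale.Agent.Results.P199.ExtensionClosure

namespace Vale.Agent.Results.P199.A0Conj

universe u v

/-- Let `D` be a division ring algebraic over a central subfield `k`. (1) If a finite set `S` of
nonzero elements generates an elementary amenable subgroup of `Dˣ`, the algebra `k[S]` is
finite-dimensional. (2) If `φ : G → Q` is a homomorphism from a subgroup `G` of `Dˣ` to an
elementary amenable group `Q` and finite subsets of the kernel generate finite-dimensional
algebras, then so do finite subsets of `G`. -/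
theorem result :
    (∀ {k : Type v} {D : Type u} [Field k] [DivisionRing D] [Algebra k D]
      [Algebra.IsAlgebraic k D] (S : Set Dˣ) (_ : S.Finite)
      (_ : Vale.Agent.Lib.P199.ElemAmenable (Subgroup.closure S)),
      Module.Finite k (Algebra.adjoin k (Units.val '' S))) ∧
    (∀ {k : Type v} {D : Type u} [Field k] [DivisionRing D] [Algebra k D]
      [Algebra.IsAlgebraic k D] (G : Subgroup Dˣ) {Q : Type u} [Group Q]
      (_ : Vale.Agent.Lib.P199.ElemAmenable Q) (φ : G →* Q)
      (_ : ∀ T : Set Dˣ, T.Finite → T ⊆ (φ.ker.map G.subtype : Subgroup Dˣ) →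
        Module.Finite k (Algebra.adjoin k (Units.val '' T))),
      ∀ S : Set Dˣ, S.Finite → S ⊆ (G : Set Dˣ) →
        Module.Finite k (Algebra.adjoin k (Units.val '' S))) :=
  ⟨@ElemAmenableGenerators.result, @ExtensionClosure.result⟩

end Vale.Agent.Results.P199.A0Conj
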